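import Vale.Agent.P299.H904.Main

/-!
# Pluri-anticanonical sections of manifolds with log canonical fibres and torus monodromy

`Z` is a compact connected complex manifold with an action of a torus `(ℂ^*)^r`. (1) If a finite
family of sections of some `-m K_Z` is log canonical (for instance without common zeros), then some
`-N K_Z`, `N > 0`, has a nonzero section which is invariant under the torus. (2), (3) If some
`-N K_Z` has a nonzero invariant section, then `H⁰(X, -N' K_X) ≠ 0` for some `N' > 0`, for every
quotient `X = (B × Z)/Γ` such that a subgroup of finite index of `Γ` acts on `Z` through the torus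
and preserves a nonzero pluri-anticanonical section on `B`, and for every manifold `Y` which has a
finite étale cover which is a torus bundle with fibre `Z` over a base with pluri-anticanonical
sections.
-/

open scoped Manifold ContDiff
open Set MeasureTheory

namespace Vale.Agent.Results.P299.TorusFibres

open Vale.Agent.P299.H904

universe u v w

theorem result
    {F G : Type u} [NormedAddCommGroup F] [NormedSpace ℂ F] [FiniteDimensional ℂ F]
    [MeasurableSpace F] [BorelSpace F] (μ : Measure F) [μ.IsAddHaarMeasure]
    [TopologicalSpace G] (J : ModelWithCorners ℂ F G) [J.Boundaryless]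
    {Z : Type v} [TopologicalSpace Z] [ChartedSpace G Z] [IsManifold J ω Z]
    [CompactSpace Z] [T2Space Z] [ConnectedSpace Z] {r : ℕ} (A : TorusAction J r Z)
    {E H H' : Type u} [NormedAddCommGroup E] [NormedSpace ℂ E] [FiniteDimensional ℂ E]
    [TopologicalSpace H] [TopologicalSpace H'] (I : ModelWithCorners ℂ E H) [I.Boundaryless]
    (K : ModelWithCorners ℂ (E × F) H') [K.Boundaryless] {B X Y : Type v} {Γ ι : Type w}
    [TopologicalSpace B] [ChartedSpace H B] [IsManifold I ω B] [ConnectedSpace B]
    [TopologicalSpace X] [ChartedSpace H' X] [IsManifold K ω X] [ConnectedSpace X]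
    [TopologicalSpace Y] [ChartedSpace H' Y] [IsManifold K ω Y] [ConnectedSpace Y]
    [Group Γ] [MulAction Γ B] [MulAction Γ Z] :
    -- (1) log canonical families give invariant sections
    (HasLCFamily J μ Z → InvariantlyEffective A) ∧
    -- (2) quotients `(B × Z)/Γ`
    (∀ (p : B × Z → X) (Γ₀ : Subgroup Γ), InvariantlyEffective A →
      IsTorusQuotient I K A Γ₀ p → FixesSection I B Γ₀ → AntiEffective K X) ∧
    -- (3) torus bundles with fibre `Z`, up to finite étale covers
    (∀ (π : X → B) (U : ι → Set B) (φ : ι → B × Z → X) (q : X → Y), InvariantlyEffective A →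
      IsTorusBundle I K A π U φ → AntiEffective I B → IsFiniteCover K q →
      AntiEffective K Y) :=
  ⟨invariantlyEffective_of_lc, fun _ _ hA h hB => hA.quotient h hB,
    fun _ _ _ _ hA h hB hq => hA.bundle hB h hq⟩

end Vale.Agent.Results.P299.TorusFibres
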